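import Vale.Agent.P207.H955.Sob

/-!
# P207 / H440: iterated averages along flows as integrals over a cube of parameters
-/

open MeasureTheory Set Filter Topology
open scoped ENNReal

noncomputable section

namespace Vale.Agent.P207.H440

open Vale.Agent.P207.H955 (avg)

variable {N κ : Type*} [TopologicalSpace N]

/-- composition of flows, the first one of the list is applied first -/
def cr (Φ : κ → ℝ → N → N) : List κ → (κ → ℝ) → N → N
  | [], _, p => p
  | a :: l, t, p => cr Φ l t (Φ a (t a) p)

theorem continuous_cr {Φ : κ → ℝ → N → N} (hΦ : ∀ a, Continuous fun x : ℝ × N => Φ a x.1 x.2)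
    (l : List κ) : Continuous fun q : (κ → ℝ) × N => cr Φ l q.1 q.2 := by
  induction l with
  | nil => exact continuous_snd
  | cons a l ih =>
    have h1 : Continuous fun q : (κ → ℝ) × N => (q.1 a, q.2) :=
      ((continuous_apply a).comp continuous_fst).prodMk continuous_snd
    have h2 : Continuous fun q : (κ → ℝ) × N => (q.1, Φ a (q.1 a) q.2) :=
      continuous_fst.prodMk ((hΦ a).comp h1)
    exact ih.comp h2

/-- `avg` with flows indexed through a map -/
theorem avg_map {μ : Type*} (Φ : κ → ℝ → N → N) (f : μ → κ) (r : ℝ) (l : List μ) (F : N → ℝ)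
    (p : N) : avg Φ r (l.map f) F p = avg (fun a => Φ (f a)) r l F p := by
  induction l generalizing p with
  | nil => rfl
  | cons a l ih => simp only [List.map_cons, avg, ih]

variable [Fintype κ] [DecidableEq κ]

theorem ofReal_avg {Φ : κ → ℝ → N → N} (hΦ : ∀ a, Continuous fun x : ℝ × N => Φ a x.1 x.2)
    {F : N → ℝ} (hF : Continuous F) (h0 : ∀ p, 0 ≤ F p) {r : ℝ} (hr : 0 ≤ r) (l : List κ)
    (hl : l.Nodup) (p : N) (x : κ → ℝ) :
    ENNReal.ofReal (avg Φ r l F p) = lmarginal (fun _ : κ => volume.restrict (Ioc (0 : ℝ) r))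
      l.toFinset (fun t => ENNReal.ofReal (F (cr Φ l t p))) x := by
  induction l generalizing p x with
  | nil => simp [avg, cr]
  | cons a l ih =>
    have h1 := List.nodup_cons.1 hl
    have hm : Measurable fun t : κ → ℝ => ENNReal.ofReal (F (cr Φ (a :: l) t p)) := by
      have h2 : Continuous fun t : κ → ℝ => cr Φ (a :: l) t p :=
        (continuous_cr hΦ (a :: l)).comp (Continuous.prodMk_left p)
      exact (hF.comp h2).measurable.ennreal_ofReal
    have hc : Continuous fun t : ℝ => avg Φ r l F (Φ a t p) :=
      (H955.avg_continuous hΦ r l hF).comp ((hΦ a).comp (Continuous.prodMk_left p))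
    have h2 : avg Φ r (a :: l) F p = ∫ t in Ioc 0 r, avg Φ r l F (Φ a t p) := by
      change ∫ t in (0 : ℝ)..r, avg Φ r l F (Φ a t p) = _
      rw [intervalIntegral.integral_of_le hr]
    rw [h2, List.toFinset_cons, lmarginal_insert _ hm (by simpa using h1.1),
      ofReal_integral_eq_lintegral_ofReal (hc.integrableOn_Ioc) (Eventually.of_forall fun t =>
        H955.avg_nonneg hr l h0 _)]
    refine lintegral_congr fun t => ?_
    rw [ih h1.2 (Φ a t p) (Function.update x a t)]
    unfold lmarginal
    refine lintegral_congr fun y => ?_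
    have h3 : Function.updateFinset (Function.update x a t) l.toFinset y a = t := by
      rw [Function.updateFinset, dif_neg (by simpa using h1.1), Function.update_self]
    change _ = ENNReal.ofReal (F (cr Φ l _ (Φ a (Function.updateFinset (Function.update x a t)
      l.toFinset y a) p)))
    rw [h3]

/-- the iterated average over all flows as an integral over the parameters -/
theorem ofReal_avg_univ {Φ : κ → ℝ → N → N}
    (hΦ : ∀ a, Continuous fun x : ℝ × N => Φ a x.1 x.2)
    {F : N → ℝ} (hF : Continuous F) (h0 : ∀ p, 0 ≤ F p) {r : ℝ} (hr : 0 ≤ r) (l : List κ)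
    (hl : l.Nodup) (hall : ∀ a, a ∈ l) (p : N) :
    ENNReal.ofReal (avg Φ r l F p) ≤
      ∫⁻ t in Metric.closedBall (0 : κ → ℝ) r, ENNReal.ofReal (F (cr Φ l t p)) := by
  have h1 : l.toFinset = Finset.univ := by
    ext a
    simp [hall a]
  rw [ofReal_avg hΦ hF h0 hr l hl p 0, h1, lmarginal_univ]
  have h2 : Measure.pi (fun _ : κ => (volume : Measure ℝ).restrict (Ioc 0 r)) =
      (volume : Measure (κ → ℝ)).restrict (Set.pi univ fun _ => Ioc 0 r) := by
    rw [volume_pi, Measure.restrict_pi_pi]
  rw [h2]
  refine lintegral_mono_set fun t ht => ?_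
  rw [mem_closedBall_zero_iff, pi_norm_le_iff_of_nonneg hr]
  intro a
  have h3 := ht a (mem_univ a)
  rw [Real.norm_eq_abs, abs_of_pos h3.1]
  exact h3.2

end Vale.Agent.P207.H440
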