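import Mathlib

/-!
# P207 / H440: bounds for the derivatives of a function on a set
-/

open scoped ContDiff Topology
open Set Filter

noncomputable section

set_option linter.unusedSectionVars false

namespace Vale.Agent.P207.H440

variable {E : Type*} [NormedAddCommGroup E] [NormedSpace ℝ E]
variable {E' : Type*} [NormedAddCommGroup E'] [NormedSpace ℝ E']
variable {V : Type*} [NormedAddCommGroup V] [NormedSpace ℝ V]
variable {W : Type*} [NormedAddCommGroup W] [NormedSpace ℝ W]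
variable {X : Type*} [NormedAddCommGroup X] [NormedSpace ℝ X]

/-- the derivatives of order `≤ N` of `F` are bounded by `B` on `K` -/
def Bd (N : ℕ) (K : Set E) (F : E → V) (B : ℝ) : Prop :=
  ∀ q ≤ N, ∀ z ∈ K, ‖iteratedFDeriv ℝ q F z‖ ≤ B

namespace Bd

variable {N : ℕ} {K Ω : Set E} {F G : E → V} {B B' : ℝ}

theorem mono (h : Bd N K F B) (hB : B ≤ B') : Bd N K F B' := fun q hq z hz =>
  (h q hq z hz).trans hB

theorem mono_ord {N' : ℕ} (h : Bd N K F B) (hN : N' ≤ N) : Bd N' K F B := fun q hq z hz =>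
  h q (hq.trans hN) z hz

theorem norm_le (h : Bd N K F B) {z : E} (hz : z ∈ K) : ‖F z‖ ≤ B := by
  have := h 0 (Nat.zero_le _) z hz
  rwa [norm_iteratedFDeriv_zero] at this

theorem nonneg (h : Bd N K F B) (hK : K.Nonempty) : 0 ≤ B := by
  obtain ⟨z, hz⟩ := hK
  exact (norm_nonneg _).trans (h.norm_le hz)

theorem congr (h : Bd N K F B) (hΩ : IsOpen Ω) (hK : K ⊆ Ω) (hFG : EqOn G F Ω) :
    Bd N K G B := by
  intro q hq z hz
  have h1 : G =ᶠ[𝓝 z] F := Filter.eventuallyEq_of_mem (hΩ.mem_nhds (hK hz)) hFG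
  rw [(h1.iteratedFDeriv ℝ q).self_of_nhds]
  exact h q hq z hz

theorem of_zero (h : ∀ z ∈ K, ‖F z‖ ≤ B) : Bd 0 K F B := by
  intro q hq z hz
  obtain rfl : q = 0 := by omega
  rw [norm_iteratedFDeriv_zero]
  exact h z hz

theorem succ (h : ∀ z ∈ K, ‖F z‖ ≤ B) (h' : Bd N K (fderiv ℝ F) B) : Bd (N + 1) K F B := by
  intro q hq z hz
  rcases q with _ | q
  · rw [norm_iteratedFDeriv_zero]
    exact h z hz
  · rw [← norm_iteratedFDeriv_fderiv]
    exact h' q (by omega) z hz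

theorem fderiv (h : Bd (N + 1) K F B) : Bd N K (_root_.fderiv ℝ F) B := by
  intro q hq z hz
  rw [norm_iteratedFDeriv_fderiv]
  exact h (q + 1) (by omega) z hz

theorem exists_bd (hK : IsCompact K) (hΩ : IsOpen Ω) (hKΩ : K ⊆ Ω) (hF : ContDiffOn ℝ ∞ F Ω)
    (N : ℕ) : ∃ B : ℝ, 0 ≤ B ∧ Bd N K F B := by
  have h1 : ∀ q : ℕ, ∃ B : ℝ, 0 ≤ B ∧ ∀ z ∈ K, ‖iteratedFDeriv ℝ q F z‖ ≤ B := by
    intro q
    have h2 : ContinuousOn (iteratedFDeriv ℝ q F) K := by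
      intro z hz
      have h3 : ContDiffAt ℝ ∞ F z := hF.contDiffAt (hΩ.mem_nhds (hKΩ hz))
      have h4 : ContDiffAt ℝ 0 (iteratedFDeriv ℝ q F) z :=
        h3.iteratedFDeriv_right (by rw [zero_add]; exact_mod_cast le_top)
      exact h4.continuousAt.continuousWithinAt
    obtain ⟨B, hB⟩ := hK.exists_bound_of_continuousOn h2
    exact ⟨max B 0, le_max_right _ _, fun z hz => (hB z hz).trans (le_max_left _ _)⟩
  choose B hB0 hB using h1
  refine ⟨∑ q ∈ Finset.range (N + 1), B q, Finset.sum_nonneg fun q _ => hB0 q,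
    fun q hq z hz => (hB q z hz).trans ?_⟩
  exact Finset.single_le_sum (fun q _ => hB0 q) (Finset.mem_range.2 (by omega))

theorem add (hΩ : IsOpen Ω) (hKΩ : K ⊆ Ω) (hF : ContDiffOn ℝ ∞ F Ω) (hG : ContDiffOn ℝ ∞ G Ω)
    (h : Bd N K F B) (h' : Bd N K G B') : Bd N K (fun z => F z + G z) (B + B') := by
  intro q hq z hz
  have h1 : ContDiffAt ℝ q F z :=
    (hF.contDiffAt (hΩ.mem_nhds (hKΩ hz))).of_le (by exact_mod_cast le_top)
  have h2 : ContDiffAt ℝ q G z :=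
    (hG.contDiffAt (hΩ.mem_nhds (hKΩ hz))).of_le (by exact_mod_cast le_top)
  have h3 : iteratedFDeriv ℝ q (fun z => F z + G z) z =
      iteratedFDeriv ℝ q F z + iteratedFDeriv ℝ q G z := iteratedFDeriv_add_apply h1 h2
  rw [h3]
  exact (norm_add_le _ _).trans (add_le_add (h q hq z hz) (h' q hq z hz))

theorem sum {ι : Type*} (s : Finset ι) {F : ι → E → V} {B : ι → ℝ} (hΩ : IsOpen Ω)
    (hKΩ : K ⊆ Ω) (hF : ∀ i, ContDiffOn ℝ ∞ (F i) Ω) (h : ∀ i, Bd N K (F i) (B i)) :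
    Bd N K (fun z => ∑ i ∈ s, F i z) (∑ i ∈ s, B i) := by
  classical
  induction s using Finset.induction_on with
  | empty =>
    intro q hq z hz
    simp only [Finset.sum_empty]
    have h1 : iteratedFDeriv ℝ q (fun _ : E => (0 : V)) z = 0 := by
      rw [iteratedFDeriv_fun_zero]
      rfl
    rw [h1, norm_zero]
  | insert i s hi ih =>
    simp only [Finset.sum_insert hi]
    exact add hΩ hKΩ (hF i) (ContDiffOn.sum fun j _ => hF j) (h i) ih

theorem bilin (b : V →L[ℝ] W →L[ℝ] X) {G : E → W} (hΩ : IsOpen Ω) (hKΩ : K ⊆ Ω)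
    (hF : ContDiffOn ℝ ∞ F Ω) (hG : ContDiffOn ℝ ∞ G Ω) (hB : 0 ≤ B)
    (h : Bd N K F B) (h' : Bd N K G B') :
    Bd N K (fun z => b (F z) (G z)) (‖b‖ * 2 ^ N * B * B') := by
  intro q hq z hz
  have hz' : z ∈ Ω := hKΩ hz
  have hB' : 0 ≤ B' := h'.nonneg ⟨z, hz⟩
  have h1 := b.norm_iteratedFDerivWithin_le_of_bilinear (n := q) (N := ∞) hF hG hΩ.uniqueDiffOn hz'
    (by exact_mod_cast le_top)
  rw [iteratedFDerivWithin_of_isOpen _ hΩ hz'] at h1
  refine h1.trans ?_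
  have h2 : ∑ i ∈ Finset.range (q + 1), (q.choose i : ℝ) * ‖iteratedFDerivWithin ℝ i F Ω z‖ *
      ‖iteratedFDerivWithin ℝ (q - i) G Ω z‖ ≤ ∑ i ∈ Finset.range (q + 1), (q.choose i : ℝ) *
        B * B' := by
    refine Finset.sum_le_sum fun i hi => ?_
    have hi' : i ≤ q := by
      have := Finset.mem_range.1 hi
      omega
    rw [iteratedFDerivWithin_of_isOpen _ hΩ hz', iteratedFDerivWithin_of_isOpen _ hΩ hz']
    have e1 := h i (hi'.trans hq) z hz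
    have e2 := h' (q - i) (by omega) z hz
    gcongr
  have h3 : ∑ i ∈ Finset.range (q + 1), (q.choose i : ℝ) * B * B' = 2 ^ q * B * B' := by
    rw [← Finset.sum_mul, ← Finset.sum_mul]
    congr 2
    exact_mod_cast Nat.sum_range_choose q
  rw [h3] at h2
  have h4 : (2 : ℝ) ^ q ≤ 2 ^ N := pow_le_pow_right₀ (by norm_num) hq
  calc ‖b‖ * _ ≤ ‖b‖ * (2 ^ q * B * B') := mul_le_mul_of_nonneg_left h2 (norm_nonneg b)
    _ ≤ ‖b‖ * (2 ^ N * B * B') := by gcongr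
    _ = _ := by ring

/-- composition with a smooth map -/
theorem comp_le {φ : E' → E} {Ω' K' : Set E'} (hΩ : IsOpen Ω) (hΩ' : IsOpen Ω')
    (hφ : ContDiffOn ℝ ∞ φ Ω') (hm : MapsTo φ Ω' Ω) (hKΩ : K' ⊆ Ω') (hm' : MapsTo φ K' K)
    {D : ℝ} (hD : Bd N K' φ D) :
    ∀ {F : E → V} {B : ℝ}, ContDiffOn ℝ ∞ F Ω → Bd N K F B →
      Bd N K' (fun z => F (φ z)) (N.factorial * (max D 1) ^ N * B) := by
  intro F B hF hB q hq z hz
  have hz' : z ∈ Ω' := hKΩ hz
  have hB0 : 0 ≤ B := hB.nonneg ⟨φ z, hm' hz⟩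
  have h1 := norm_iteratedFDerivWithin_comp_le (n := q) (N := ∞) (g := F) (f := φ) (x := z)
    (C := B) (D := max D 1) hF hφ (by exact_mod_cast le_top) hΩ.uniqueDiffOn hΩ'.uniqueDiffOn
    hm hz' (fun i hi => by
      rw [iteratedFDerivWithin_of_isOpen _ hΩ (hm hz')]
      exact hB i (hi.trans hq) _ (hm' hz))
    (fun i hi hi' => by
      rw [iteratedFDerivWithin_of_isOpen _ hΩ' hz']
      have e1 : max D 1 ≤ (max D 1) ^ i := le_self_pow₀ (le_max_right _ _) (by omega)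
      exact (hD i (hi'.trans hq) z hz).trans ((le_max_left _ _).trans e1))
  rw [iteratedFDerivWithin_of_isOpen _ hΩ' hz'] at h1
  refine h1.trans ?_
  have h2 : (q.factorial : ℝ) ≤ N.factorial := by exact_mod_cast Nat.factorial_le hq
  have h3 : (max D 1) ^ q ≤ (max D 1) ^ N := pow_le_pow_right₀ (le_max_right _ _) hq
  have h4 : (0 : ℝ) ≤ max D 1 := zero_le_one.trans (le_max_right _ _)
  calc (q.factorial : ℝ) * B * (max D 1) ^ q ≤ N.factorial * B * (max D 1) ^ N := by gcongr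
    _ = _ := by ring

theorem clm (L : V →L[ℝ] W) (hΩ : IsOpen Ω) (hKΩ : K ⊆ Ω) (hF : ContDiffOn ℝ ∞ F Ω)
    (h : Bd N K F B) : Bd N K (fun z => L (F z)) (‖L‖ * B) := by
  intro q hq z hz
  have h1 : ContDiffAt ℝ q F z :=
    (hF.contDiffAt (hΩ.mem_nhds (hKΩ hz))).of_le (by exact_mod_cast le_top)
  have h2 : iteratedFDeriv ℝ q (fun z => L (F z)) z =
      L.compContinuousMultilinearMap (iteratedFDeriv ℝ q F z) :=
    L.iteratedFDeriv_comp_left h1 le_rfl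
  rw [h2]
  exact (L.norm_compContinuousMultilinearMap_le _).trans
    (mul_le_mul_of_nonneg_left (h q hq z hz) (norm_nonneg L))

theorem of_sub (hΩ : IsOpen Ω) (hKΩ : K ⊆ Ω) (hF : ContDiffOn ℝ ∞ F Ω) (hG : ContDiffOn ℝ ∞ G Ω)
    (h : Bd N K (fun z => F z - G z) B) {q : ℕ} (hq : q ≤ N) {z : E} (hz : z ∈ K) :
    ‖iteratedFDeriv ℝ q F z - iteratedFDeriv ℝ q G z‖ ≤ B := by
  have h1 : ContDiffAt ℝ q F z :=
    (hF.contDiffAt (hΩ.mem_nhds (hKΩ hz))).of_le (by exact_mod_cast le_top)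
  have h2 : ContDiffAt ℝ q G z :=
    (hG.contDiffAt (hΩ.mem_nhds (hKΩ hz))).of_le (by exact_mod_cast le_top)
  have h3 : iteratedFDeriv ℝ q (fun z => F z - G z) z =
      iteratedFDeriv ℝ q F z - iteratedFDeriv ℝ q G z := iteratedFDeriv_sub_apply h1 h2
  rw [← h3]
  exact h q hq z hz

theorem to_sub (hΩ : IsOpen Ω) (hKΩ : K ⊆ Ω) (hF : ContDiffOn ℝ ∞ F Ω) (hG : ContDiffOn ℝ ∞ G Ω)
    (h : ∀ q ≤ N, ∀ z ∈ K, ‖iteratedFDeriv ℝ q F z - iteratedFDeriv ℝ q G z‖ ≤ B) :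
    Bd N K (fun z => F z - G z) B := by
  intro q hq z hz
  have h1 : ContDiffAt ℝ q F z :=
    (hF.contDiffAt (hΩ.mem_nhds (hKΩ hz))).of_le (by exact_mod_cast le_top)
  have h2 : ContDiffAt ℝ q G z :=
    (hG.contDiffAt (hΩ.mem_nhds (hKΩ hz))).of_le (by exact_mod_cast le_top)
  have h3 : iteratedFDeriv ℝ q (fun z => F z - G z) z =
      iteratedFDeriv ℝ q F z - iteratedFDeriv ℝ q G z := iteratedFDeriv_sub_apply h1 h2
  rw [h3]
  exact h q hq z hz

end Bd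

end Vale.Agent.P207.H440
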