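import Mathlib

/-!
# P207 / H440: a family of local diffeomorphisms, comparison of integrals
-/

open MeasureTheory Set Filter Topology Metric
open scoped ENNReal NNReal

noncomputable section

namespace Vale.Agent.P207.H440

variable {P E : Type*} [NormedAddCommGroup P] [NormedSpace ℝ P] [NormedAddCommGroup E]
  [NormedSpace ℝ E] [FiniteDimensional ℝ E] [MeasurableSpace E] [BorelSpace E]

/-- the identity as a nonlinear right inverse of the identity -/
def idInv (E : Type*) [NormedAddCommGroup E] [NormedSpace ℝ E] :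
    (ContinuousLinearMap.id ℝ E).NonlinearRightInverse where
  toFun := id
  nnnorm := 1
  bound' y := by simp
  right_inv' y := rfl

theorem fam {μ : Measure E} [μ.IsAddHaarMeasure] {G : P × E → E} {z₀ : P}
    (hG : ContDiffAt ℝ 1 G (z₀, 0))
    (hD : (fderiv ℝ G (z₀, 0)).comp (ContinuousLinearMap.inr ℝ P E) =
      ContinuousLinearMap.id ℝ E) {ρ : ℝ} (hρ : 0 < ρ) :
    ∃ ε > 0, ε < ρ ∧ ∃ r₁ > 0, r₁ ≤ ε ∧ ∃ W ∈ 𝓝 z₀, ∀ z ∈ W, ∀ z' ∈ W, ∀ F : E → ℝ≥0∞,
      ∫⁻ x in closedBall 0 r₁, F (G (z, x)) ∂μ ≤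
        4 * ∫⁻ x in closedBall 0 ε, F (G (z', x)) ∂μ := by
  have h1 : ∀ᶠ q in 𝓝 (z₀, (0 : E)), DifferentiableAt ℝ G q := by
    filter_upwards [hG.eventually (by simp)] with q hq
    exact hq.differentiableAt (by simp)
  have hcf : ContinuousAt (fderiv ℝ G) (z₀, 0) := hG.continuousAt_fderiv (by simp)
  have hcA : ContinuousAt (fun q => (fderiv ℝ G q).comp (ContinuousLinearMap.inr ℝ P E))
      (z₀, (0 : E)) := hcf.clm_comp continuousAt_const
  have h2 : ∀ᶠ q in 𝓝 (z₀, (0 : E)), ‖(fderiv ℝ G q).comp (ContinuousLinearMap.inr ℝ P E) -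
      ContinuousLinearMap.id ℝ E‖ < 1 / 4 := by
    have h3 : Tendsto (fun q => ‖(fderiv ℝ G q).comp (ContinuousLinearMap.inr ℝ P E) -
      ContinuousLinearMap.id ℝ E‖) (𝓝 (z₀, (0 : E))) (𝓝 0) := by
      have h4 := (hcA.tendsto.sub_const (ContinuousLinearMap.id ℝ E)).norm
      rw [hD, sub_self, norm_zero] at h4
      exact h4
    exact h3.eventually (gt_mem_nhds (by norm_num))
  have h3 : ∀ᶠ q in 𝓝 (z₀, (0 : E)),
      1 / 2 < |((fderiv ℝ G q).comp (ContinuousLinearMap.inr ℝ P E)).det| ∧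
        |((fderiv ℝ G q).comp (ContinuousLinearMap.inr ℝ P E)).det| < 2 := by
    have h4 : Tendsto (fun q => |((fderiv ℝ G q).comp (ContinuousLinearMap.inr ℝ P E)).det|)
        (𝓝 (z₀, (0 : E))) (𝓝 1) := by
      have h5 : Tendsto (fun q => ((fderiv ℝ G q).comp (ContinuousLinearMap.inr ℝ P E)).det)
          (𝓝 (z₀, (0 : E))) (𝓝 (((fderiv ℝ G (z₀, 0)).comp
            (ContinuousLinearMap.inr ℝ P E)).det)) :=
        (ContinuousLinearMap.continuous_det.continuousAt.comp hcA).tendsto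
      have h6 := h5.abs
      have h7 : (ContinuousLinearMap.id ℝ E).det = 1 := by
        change LinearMap.det (LinearMap.id : E →ₗ[ℝ] E) = 1
        exact LinearMap.det_id
      rw [hD, h7, abs_one] at h6
      exact h6
    exact (h4.eventually (lt_mem_nhds (by norm_num))).and (h4.eventually (gt_mem_nhds
      (by norm_num)))
  have h4 := (h1.and h2).and h3
  rw [nhds_prod_eq] at h4
  obtain ⟨W₁, hW₁, B, hB, hWB⟩ := Filter.mem_prod_iff.1 h4
  obtain ⟨δ, hδ, hδB⟩ := Metric.mem_nhds_iff.1 hB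
  set ε := min (δ / 2) (ρ / 2) with hε
  have hε0 : 0 < ε := lt_min (by positivity) (by positivity)
  have hεδ : ε < δ := (min_le_left _ _).trans_lt (by linarith)
  have hερ : ε < ρ := (min_le_right _ _).trans_lt (by linarith)
  have hc0 : ContinuousAt (fun z => G (z, (0 : E))) z₀ :=
    ContinuousAt.comp (g := G) (f := fun z => (z, (0 : E))) hG.continuousAt
      (continuousAt_id.prodMk continuousAt_const)
  obtain ⟨W₂, hW₂, hW₂'⟩ : ∃ W₂ ∈ 𝓝 z₀, ∀ z ∈ W₂, ‖G (z, 0) - G (z₀, 0)‖ < ε / 16 := by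
    have h5 : Tendsto (fun z => ‖G (z, 0) - G (z₀, 0)‖) (𝓝 z₀) (𝓝 0) := by
      have h6 := (hc0.tendsto.sub_const (G (z₀, 0))).norm
      rw [sub_self, norm_zero] at h6
      exact h6
    exact ⟨_, h5.eventually (gt_mem_nhds (show (0 : ℝ) < ε / 16 by positivity)), fun z hz => hz⟩
  set A : P → E → E →L[ℝ] E := fun z x => (fderiv ℝ G (z, x)).comp
    (ContinuousLinearMap.inr ℝ P E) with hA
  have hder : ∀ z ∈ W₁, ∀ x ∈ ball (0 : E) δ, HasFDerivAt (fun x => G (z, x)) (A z x) x := by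
    intro z hz x hx
    have h5 : DifferentiableAt ℝ G (z, x) := (hWB (show (z, x) ∈ W₁ ×ˢ B from ⟨hz, hδB hx⟩)).1.1
    exact h5.hasFDerivAt.comp x (hasFDerivAt_prodMk_right z x)
  have hnorm : ∀ z ∈ W₁, ∀ x ∈ ball (0 : E) δ, ‖A z x - ContinuousLinearMap.id ℝ E‖ ≤ 1 / 4 :=
    fun z hz x hx => (hWB (show (z, x) ∈ W₁ ×ˢ B from ⟨hz, hδB hx⟩)).1.2.le
  have hdet : ∀ z ∈ W₁, ∀ x ∈ ball (0 : E) δ, 1 / 2 < |(A z x).det| ∧ |(A z x).det| < 2 :=
    fun z hz x hx => (hWB (show (z, x) ∈ W₁ ×ˢ B from ⟨hz, hδB hx⟩)).2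
  have happ : ∀ z ∈ W₁, ∀ x ∈ ball (0 : E) δ, ∀ y ∈ ball (0 : E) δ,
      ‖G (z, x) - G (z, y) - (x - y)‖ ≤ 1 / 4 * ‖x - y‖ := by
    intro z hz x hx y hy
    have h5 : ∀ w ∈ ball (0 : E) δ, HasFDerivWithinAt (fun x => G (z, x) - x)
        (A z w - ContinuousLinearMap.id ℝ E) (ball 0 δ) w := fun w hw =>
      ((hder z hz w hw).sub (hasFDerivAt_id w)).hasFDerivWithinAt
    have h6 := Convex.norm_image_sub_le_of_norm_hasFDerivWithin_le h5
      (fun w hw => hnorm z hz w hw) (convex_ball (0 : E) δ) hy hx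
    have h7 : G (z, x) - x - (G (z, y) - y) = G (z, x) - G (z, y) - (x - y) := by abel
    rw [h7] at h6
    exact h6
  have hinj : ∀ z ∈ W₁, InjOn (fun x => G (z, x)) (ball (0 : E) δ) := by
    intro z hz x hx y hy hxy
    have h5 := happ z hz x hx y hy
    simp only at hxy
    rw [hxy, sub_self, zero_sub, norm_neg] at h5
    have h6 : ‖x - y‖ ≤ 0 := by linarith [norm_nonneg (x - y)]
    exact sub_eq_zero.1 (norm_le_zero_iff.1 h6)
  have hcov : ∀ z ∈ W₁, ∀ s ⊆ ball (0 : E) δ, MeasurableSet s → ∀ F : E → ℝ≥0∞,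
      ∫⁻ x in (fun x => G (z, x)) '' s, F x ∂μ =
        ∫⁻ x in s, ENNReal.ofReal |(A z x).det| * F (G (z, x)) ∂μ := by
    intro z hz s hs hms F
    exact lintegral_image_eq_lintegral_abs_det_fderiv_mul μ hms
      (fun x hx => (hder z hz x (hs hx)).hasFDerivWithinAt) ((hinj z hz).mono hs) F
  refine ⟨ε, hε0, hερ, ε / 4, by positivity, by linarith, W₁ ∩ W₂, inter_mem hW₁ hW₂, ?_⟩
  rintro z ⟨hz1, hz2⟩ z' ⟨hz1', hz2'⟩ F
  have hs1 : closedBall (0 : E) (ε / 4) ⊆ ball 0 δ := closedBall_subset_ball (by linarith)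
  have hs2 : closedBall (0 : E) ε ⊆ ball 0 δ := closedBall_subset_ball hεδ
  have hsub : (fun x => G (z, x)) '' closedBall 0 (ε / 4) ⊆
      (fun x => G (z', x)) '' closedBall 0 ε := by
    have hap : ApproximatesLinearOn (fun x => G (z', x)) (ContinuousLinearMap.id ℝ E)
        (closedBall 0 ε) (1 / 4 : ℝ≥0) := by
      intro x hx y hy
      have h5 := happ z' hz1' x (hs2 hx) y (hs2 hy)
      simpa using h5
    have h5 := hap.surjOn_closedBall_of_nonlinearRightInverse (idInv E) hε0.le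
      (b := 0) subset_rfl
    rintro _ ⟨x, hx, rfl⟩
    refine h5 ?_
    have h6 : ((((idInv E).nnnorm : ℝ)⁻¹ - ((1 / 4 : ℝ≥0) : ℝ)) * ε) = 3 / 4 * ε := by
      have h7 : ((idInv E).nnnorm : ℝ) = 1 := rfl
      rw [h7]
      norm_num
    rw [h6, mem_closedBall, dist_eq_norm]
    simp only
    have h7 := happ z hz1 x (hs1 hx) 0 (mem_ball_self hδ)
    rw [sub_zero] at h7
    have h8 : ‖x‖ ≤ ε / 4 := by simpa using hx
    have h9 := hW₂' z hz2
    have h10 := hW₂' z' hz2'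
    have h11 : G (z, x) - G (z', 0) = (G (z, x) - G (z, 0) - x) + x + (G (z, 0) - G (z₀, 0)) -
        (G (z', 0) - G (z₀, 0)) := by abel
    rw [h11]
    have h12 := norm_sub_le ((G (z, x) - G (z, 0) - x) + x + (G (z, 0) - G (z₀, 0)))
      (G (z', 0) - G (z₀, 0))
    have h13 := norm_add_le ((G (z, x) - G (z, 0) - x) + x) (G (z, 0) - G (z₀, 0))
    have h14 := norm_add_le (G (z, x) - G (z, 0) - x) x
    linarith
  have hA1 : ∫⁻ x in closedBall 0 (ε / 4), F (G (z, x)) ∂μ ≤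
      2 * ∫⁻ x in (fun x => G (z, x)) '' closedBall 0 (ε / 4), F x ∂μ := by
    rw [hcov z hz1 _ hs1 isClosed_closedBall.measurableSet, ← lintegral_const_mul' _ _ (by simp)]
    refine setLIntegral_mono' isClosed_closedBall.measurableSet fun x hx => ?_
    have h5 := (hdet z hz1 x (hs1 hx)).1
    rw [← mul_assoc]
    have h6 : (1 : ℝ≥0∞) ≤ 2 * ENNReal.ofReal |(A z x).det| := by
      have h7 : (2 : ℝ≥0∞) = ENNReal.ofReal 2 := by simp
      rw [h7, ← ENNReal.ofReal_mul (by norm_num), ← ENNReal.ofReal_one]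
      exact ENNReal.ofReal_le_ofReal (by linarith)
    calc F (G (z, x)) = 1 * F (G (z, x)) := (one_mul _).symm
      _ ≤ _ := mul_le_mul_left h6 _
  have hA2 : ∫⁻ x in (fun x => G (z', x)) '' closedBall 0 ε, F x ∂μ ≤
      2 * ∫⁻ x in closedBall 0 ε, F (G (z', x)) ∂μ := by
    rw [hcov z' hz1' _ hs2 isClosed_closedBall.measurableSet, ← lintegral_const_mul' _ _ (by simp)]
    refine setLIntegral_mono' isClosed_closedBall.measurableSet fun x hx => ?_
    have h5 := (hdet z' hz1' x (hs2 hx)).2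
    have h6 : ENNReal.ofReal |(A z' x).det| ≤ 2 := by
      have h7 : (2 : ℝ≥0∞) = ENNReal.ofReal 2 := by simp
      rw [h7]
      exact ENNReal.ofReal_le_ofReal h5.le
    exact mul_le_mul_left h6 _
  calc ∫⁻ x in closedBall 0 (ε / 4), F (G (z, x)) ∂μ
      ≤ 2 * ∫⁻ x in (fun x => G (z, x)) '' closedBall 0 (ε / 4), F x ∂μ := hA1
    _ ≤ 2 * ∫⁻ x in (fun x => G (z', x)) '' closedBall 0 ε, F x ∂μ :=
        mul_le_mul_right (lintegral_mono_set hsub) _
    _ ≤ 2 * (2 * ∫⁻ x in closedBall 0 ε, F (G (z', x)) ∂μ) := mul_le_mul_right hA2 _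
    _ = 4 * ∫⁻ x in closedBall 0 ε, F (G (z', x)) ∂μ := by
        rw [← mul_assoc]
        norm_num

end Vale.Agent.P207.H440
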